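import Vale.Agent.P233.RA.IfST
import Vale.Agent.P233.H994.RKDef

/-! P233, stage 3, part N2: Theorem N for a density `θ : M → ℝ` (not constant), without the
field `slope_eq` of `RA.NSp`. The files `N2/*` are copies of the files of Theorem N (`RA`, `H183`,
`H254`, `H339`, `H368`, `H732`, `H866`, `H886`, `H982`, `H994`, `H47`) with the new structure. -/

set_option linter.all false

open MeasureTheory Filter Topology Set
open scoped ENNReal NNReal MeasureTheory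

universe u

namespace Vale.Agent.P233.N2.RA

export Vale.Agent.P233.RA (gg cc ww BSup Q ga aK bK KH Okd CD BLip Cst OutC cc_comm Adm cutA Opt
  Blk_T dm SG0 tht mom tau aS OutCd Ci K1S KA2 KA3)

section

variable {M : Type u} [MetricSpace M] [MeasurableSpace M]

/-- Hypotheses of Theorem N with a density function `θ`. -/
structure NSp (m : Measure M) (n : ℕ) (K : ℝ) (θ : M → ℝ) : Prop where
  n_pos : 0 < n
  proper : ProperSpace M
  geo : Gig.Geo M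
  full : m.IsOpenPosMeasure
  fin : ∀ (x : M) (r : ℝ), m (Metric.ball x r) < ∞
  /-- exponential growth -/
  growth : ∃ (x₀ : M) (c : ℝ), ∀ r > 0, m (Metric.ball x₀ r) ≤ ENNReal.ofReal (c * Real.exp (c * r))
  upper : ∀ (x₀ : M) (R : ℝ), ∃ c : ℝ, ∀ x ∈ Metric.ball x₀ R, ∀ r, 0 < r → r ≤ 1 →
    m (Metric.ball x r) ≤ ENNReal.ofReal (c * r ^ n)
  θ_meas : Measurable θ
  θ_bd : ∀ (x₀ : M) (R : ℝ), ∃ c : ℝ, 0 < c ∧ ∀ x ∈ Metric.ball x₀ R, c ≤ θ x ∧ θ x ≤ c⁻¹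
  dens : ∀ᵐ x ∂m, Tendsto (fun r : ℝ => (m (Metric.ball x r)).toReal / r ^ n) (𝓝[>] 0) (𝓝 (θ x))
  quadratic : ∀ f ∈ (sob m).W, ∀ g ∈ (sob m).W,
    ∫ x, (slope (f + g) ^ 2) x ∂m + ∫ x, (slope (f - g) ^ 2) x ∂m
      = 2 * ∫ x, (slope f ^ 2) x ∂m + 2 * ∫ x, (slope g ^ 2) x ∂m
  s2l : ∀ f ∈ (sob m).W, slope f ≤ 1 → ∃ u : M → ℝ, LipschitzWith 1 u ∧ f =ᵐ[m] u
  /-- `|∇ d_p| = 1` -/
  ww_slope : ∀ (p : M) (δ : ℝ), 0 < δ → ∀ᵐ x ∂m, gg p x < δ →
    2 * gg p x ≤ slope (cl m (ww δ p)) x ^ 2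
  /-- Laplacian comparison: `Δ g_p ≤ n - (2K/3) g_p` -/
  lc : ∀ (p : M) (δ : ℝ), 0 < δ → ∀ φ ∈ (sob m).W, 0 ≤ φ → (∀ᵐ x ∂m, δ ≤ gg p x → φ x = 0) →
    -I ((sob m).Γ (cl m (ww δ p)) φ) ≤ ∫ x, (n - 2 * K / 3 * gg p x) * φ x ∂m

variable {m : Measure M} {n : ℕ} {K : ℝ} {θ : M → ℝ}

theorem NSp.isDir [BorelSpace M] [SecondCountableTopology M] (h : NSp m n K θ) : IsDir (sob m) :=
  isDir_sob h.fin h.quadratic

theorem NSp.isGamma [BorelSpace M] [SecondCountableTopology M] (h : NSp m n K θ) :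
    IsGamma (sob m) :=
  isGamma_sob h.fin h.quadratic h.s2l

theorem NSp.θ_pos (h : NSp m n K θ) (x : M) : 0 < θ x := by
  obtain ⟨c, hc, h1⟩ := h.θ_bd x 1
  exact hc.trans_le (h1 x (Metric.mem_ball_self one_pos)).1

end

/-- Theorem N with a density function. -/
def PartN : Prop := ∀ (M : Type u) [MetricSpace M] [CompleteSpace M] [SecondCountableTopology M]
  [MeasurableSpace M] [BorelSpace M] (m : Measure M) (n : ℕ) (K : ℝ) (θ : M → ℝ), NSp m n K θ →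
    (sob m).BE K n

end Vale.Agent.P233.N2.RA
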